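import Vale.Agent.Lib.P070.Main

/-!
Let `A` have property (N) and let `π` be an irreducible representation. Either `π` is an isomorphism
onto the compact operators, or the range of each nonzero `π a` contains a Cantor-indexed orthonormal
family, and so has density character at least the continuum.
-/

namespace Vale.Agent.Results.P070.DensityDichotomy

universe u

open Vale.Agent.Lib.P070

theorem result (A : Type u) [NonUnitalCStarAlgebra A] (hN : PropertyN A)
    (H : Type u) [NormedAddCommGroup H] [InnerProductSpace ℂ H] [CompleteSpace H]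
    (π : A →⋆ₙₐ[ℂ] (H →L[ℂ] H)) (hπ : IsIrreducibleRep π) :
    (Function.Injective π ∧ Set.range π = {T : H →L[ℂ] H | IsCompactOperator T}) ∨
      ∀ a : A, a ≠ 0 →
        (∃ η : (ℕ → Bool) → H, Orthonormal ℂ η ∧ ∀ x, η x ∈ Set.range (π a)) ∧
        ∀ S : Set H, (∀ v, π a v ∈ closure S) → Cardinal.continuum ≤ Cardinal.mk S := by
  rcases dichotomy hN π hπ with h | h
  · exact Or.inl h
  · refine Or.inr fun a ha => ?_
    obtain ⟨η, hη, hr⟩ := h a ha
    refine ⟨⟨η, hη, hr⟩, fun S hS => continuum_le_of_orthonormal hη fun x => ?_⟩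
    obtain ⟨v, hv⟩ := hr x
    rw [← hv]
    exact hS v

end Vale.Agent.Results.P070.DensityDichotomy
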